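import Mathlib

namespace Vale.Agent.Results.P345.A_QuantifierFree

open MvPolynomial

/-- `S ⊆ ℕⁿ` has a single-fold Diophantine representation: an integer polynomial `P` in the
`n` parameters and `m` auxiliary variables such that `a ∈ S` iff `P(a, w) = 0` for some
`w ∈ ℕᵐ`, and for every `a ∈ ℕⁿ` at most one `w ∈ ℕᵐ` satisfies `P(a, w) = 0`. -/
def SingleFold {n : ℕ} (S : Set (Fin n → ℕ)) : Prop :=
  ∃ (m : ℕ) (P : MvPolynomial (Fin n ⊕ Fin m) ℤ), ∀ a : Fin n → ℕ,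
    (a ∈ S ↔ ∃ w : Fin m → ℕ,
      MvPolynomial.eval (Sum.elim (fun i => (a i : ℤ)) (fun j => (w j : ℤ))) P = 0) ∧
    (∀ w w' : Fin m → ℕ,
      MvPolynomial.eval (Sum.elim (fun i => (a i : ℤ)) (fun j => (w j : ℤ))) P = 0 →
      MvPolynomial.eval (Sum.elim (fun i => (a i : ℤ)) (fun j => (w' j : ℤ))) P = 0 → w = w')

/-- Quantifier-free formulas of arithmetic in `n` free variables: Boolean combinations of
polynomial equalities `p = 0` and inequalities `p ≤ 0` with integer coefficients. -/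
inductive QF (n : ℕ) : Type
  | eqz (p : MvPolynomial (Fin n) ℤ) : QF n
  | lez (p : MvPolynomial (Fin n) ℤ) : QF n
  | not (φ : QF n) : QF n
  | and (φ ψ : QF n) : QF n
  | or (φ ψ : QF n) : QF n

/-- Truth of a quantifier-free formula at a point `a ∈ ℕⁿ`. -/
def QF.Holds {n : ℕ} : QF n → (Fin n → ℕ) → Prop
  | QF.eqz p, a => MvPolynomial.eval (fun i => (a i : ℤ)) p = 0
  | QF.lez p, a => MvPolynomial.eval (fun i => (a i : ℤ)) p ≤ 0
  | QF.not φ, a => ¬ QF.Holds φ a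
  | QF.and φ ψ, a => QF.Holds φ a ∧ QF.Holds ψ a
  | QF.or φ ψ, a => QF.Holds φ a ∨ QF.Holds ψ a

/-- Evaluation at natural parameters `a` and natural witnesses `w`. -/
noncomputable def ev {n : ℕ} {ι : Type} (a : Fin n → ℕ) (w : ι → ℕ)
    (P : MvPolynomial (Fin n ⊕ ι) ℤ) : ℤ :=
  MvPolynomial.eval (Sum.elim (fun i => (a i : ℤ)) (fun j => (w j : ℤ))) P

/-- Single-fold representation with an arbitrary witness index type. -/
def Rep {n : ℕ} (ι : Type) (S : Set (Fin n → ℕ)) (P : MvPolynomial (Fin n ⊕ ι) ℤ) : Prop :=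
  ∀ a : Fin n → ℕ,
    (a ∈ S ↔ ∃ w : ι → ℕ, ev a w P = 0) ∧
    (∀ w w' : ι → ℕ, ev a w P = 0 → ev a w' P = 0 → w = w')

/-- Single-fold representability with some finite witness index type. -/
def SFg {n : ℕ} (S : Set (Fin n → ℕ)) : Prop :=
  ∃ (ι : Type) (_ : Fintype ι) (P : MvPolynomial (Fin n ⊕ ι) ℤ), Rep ι S P

theorem ev_rename_inl {n : ℕ} {ι : Type} (a : Fin n → ℕ) (w : ι → ℕ)
    (p : MvPolynomial (Fin n) ℤ) :
    ev a w (rename Sum.inl p) = MvPolynomial.eval (fun i => (a i : ℤ)) p := by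
  unfold ev
  rw [eval_rename]
  rfl

theorem ev_X_inr {n : ℕ} {ι : Type} (a : Fin n → ℕ) (w : ι → ℕ) (j : ι) :
    ev a w (X (Sum.inr j)) = (w j : ℤ) := by
  simp [ev]

theorem ev_add {n : ℕ} {ι : Type} (a : Fin n → ℕ) (w : ι → ℕ)
    (P Q : MvPolynomial (Fin n ⊕ ι) ℤ) : ev a w (P + Q) = ev a w P + ev a w Q := by
  simp [ev]

theorem ev_sub {n : ℕ} {ι : Type} (a : Fin n → ℕ) (w : ι → ℕ)
    (P Q : MvPolynomial (Fin n ⊕ ι) ℤ) : ev a w (P - Q) = ev a w P - ev a w Q := by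
  simp [ev]

theorem ev_mul {n : ℕ} {ι : Type} (a : Fin n → ℕ) (w : ι → ℕ)
    (P Q : MvPolynomial (Fin n ⊕ ι) ℤ) : ev a w (P * Q) = ev a w P * ev a w Q := by
  simp [ev]

theorem ev_pow {n : ℕ} {ι : Type} (a : Fin n → ℕ) (w : ι → ℕ)
    (P : MvPolynomial (Fin n ⊕ ι) ℤ) (k : ℕ) : ev a w (P ^ k) = ev a w P ^ k := by
  simp [ev]

theorem ev_one {n : ℕ} {ι : Type} (a : Fin n → ℕ) (w : ι → ℕ) :
    ev a w (1 : MvPolynomial (Fin n ⊕ ι) ℤ) = 1 := by
  simp [ev]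

theorem ev_sum {n : ℕ} {ι κ : Type} (a : Fin n → ℕ) (w : ι → ℕ) (s : Finset κ)
    (f : κ → MvPolynomial (Fin n ⊕ ι) ℤ) :
    ev a w (∑ k ∈ s, f k) = ∑ k ∈ s, ev a w (f k) := by
  simp [ev]

theorem ev_rename_map_inl {n : ℕ} {ι κ : Type} (a : Fin n → ℕ) (w : ι ⊕ κ → ℕ)
    (P : MvPolynomial (Fin n ⊕ ι) ℤ) :
    ev a w (rename (Sum.map id Sum.inl) P) = ev a (fun j => w (Sum.inl j)) P := by
  unfold ev
  rw [eval_rename]
  have hfun : (Sum.elim (fun i => (a i : ℤ)) (fun j => (w j : ℤ))) ∘ Sum.map id Sum.inl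
      = Sum.elim (fun i => (a i : ℤ)) (fun j => (w (Sum.inl j) : ℤ)) := by
    funext x
    cases x <;> rfl
  rw [hfun]

theorem ev_rename_map_inr {n : ℕ} {ι κ : Type} (a : Fin n → ℕ) (w : ι ⊕ κ → ℕ)
    (P : MvPolynomial (Fin n ⊕ κ) ℤ) :
    ev a w (rename (Sum.map id Sum.inr) P) = ev a (fun j => w (Sum.inr j)) P := by
  unfold ev
  rw [eval_rename]
  have hfun : (Sum.elim (fun i => (a i : ℤ)) (fun j => (w j : ℤ))) ∘ Sum.map id Sum.inr
      = Sum.elim (fun i => (a i : ℤ)) (fun j => (w (Sum.inr j) : ℤ)) := by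
    funext x
    cases x <;> rfl
  rw [hfun]

/-- From an arbitrary finite witness type to `Fin m`. -/
theorem singleFold_of_sfg {n : ℕ} {S : Set (Fin n → ℕ)} (h : SFg S) : SingleFold S := by
  obtain ⟨ι, hι, P, hP⟩ := h
  let e : ι ≃ Fin (Fintype.card ι) := Fintype.equivFin ι
  have key : ∀ (a : Fin n → ℕ) (w : Fin (Fintype.card ι) → ℕ),
      MvPolynomial.eval (Sum.elim (fun i => (a i : ℤ)) (fun j => (w j : ℤ)))
        (rename (Sum.map id e) P) = ev a (fun j => w (e j)) P := by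
    intro a w
    unfold ev
    rw [eval_rename]
    have hfun : (Sum.elim (fun i => (a i : ℤ)) (fun j => (w j : ℤ))) ∘ Sum.map id e
        = Sum.elim (fun i => (a i : ℤ)) (fun j => (w (e j) : ℤ)) := by
      funext x
      cases x <;> rfl
    rw [hfun]
  refine ⟨Fintype.card ι, rename (Sum.map id e) P, ?_⟩
  intro a
  obtain ⟨h1, h2⟩ := hP a
  refine ⟨?_, ?_⟩
  · rw [h1]
    constructor
    · rintro ⟨w, hw⟩
      refine ⟨fun j => w (e.symm j), ?_⟩
      rw [key]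
      simpa using hw
    · rintro ⟨w, hw⟩
      rw [key] at hw
      exact ⟨_, hw⟩
  · intro w w' hw hw'
    rw [key] at hw hw'
    have := h2 _ _ hw hw'
    funext j
    have hj := congrFun this (e.symm j)
    simpa using hj

theorem sfg_eqz {n : ℕ} (p : MvPolynomial (Fin n) ℤ) :
    SFg {a : Fin n → ℕ | MvPolynomial.eval (fun i => (a i : ℤ)) p = 0} := by
  refine ⟨Empty, inferInstance, rename Sum.inl p, ?_⟩
  intro a
  refine ⟨?_, ?_⟩
  · constructor
    · intro h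
      refine ⟨fun j => j.elim, ?_⟩
      rw [ev_rename_inl]
      exact h
    · rintro ⟨w, hw⟩
      rw [ev_rename_inl] at hw
      exact hw
  · intro w w' _ _
    funext j
    exact j.elim

theorem sfg_nez {n : ℕ} (p : MvPolynomial (Fin n) ℤ) :
    SFg {a : Fin n → ℕ | ¬ MvPolynomial.eval (fun i => (a i : ℤ)) p = 0} := by
  refine ⟨Unit, inferInstance, (rename Sum.inl p) ^ 2 - X (Sum.inr ()) - 1, ?_⟩
  intro a
  have hev : ∀ w : Unit → ℕ, ev a w ((rename Sum.inl p) ^ 2 - X (Sum.inr ()) - 1)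
      = (MvPolynomial.eval (fun i => (a i : ℤ)) p) ^ 2 - (w () : ℤ) - 1 := by
    intro w
    rw [ev_sub, ev_sub, ev_pow, ev_rename_inl, ev_X_inr, ev_one]
  refine ⟨?_, ?_⟩
  · constructor
    · intro h
      have h' : MvPolynomial.eval (fun i => (a i : ℤ)) p ≠ 0 := h
      have hpos : 0 < (MvPolynomial.eval (fun i => (a i : ℤ)) p) ^ 2 := by positivity
      refine ⟨fun _ => ((MvPolynomial.eval (fun i => (a i : ℤ)) p) ^ 2 - 1).toNat, ?_⟩
      rw [hev]
      have : (((MvPolynomial.eval (fun i => (a i : ℤ)) p) ^ 2 - 1).toNat : ℤ)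
          = (MvPolynomial.eval (fun i => (a i : ℤ)) p) ^ 2 - 1 := Int.toNat_of_nonneg (by omega)
      rw [this]
      ring
    · rintro ⟨w, hw⟩
      rw [hev] at hw
      intro h0
      rw [h0] at hw
      have : (0 : ℤ) ≤ (w () : ℤ) := Int.natCast_nonneg _
      omega
  · intro w w' hw hw'
    rw [hev] at hw hw'
    funext j
    have : (w () : ℤ) = (w' () : ℤ) := by linarith
    exact_mod_cast this

theorem sfg_lez {n : ℕ} (p : MvPolynomial (Fin n) ℤ) :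
    SFg {a : Fin n → ℕ | MvPolynomial.eval (fun i => (a i : ℤ)) p ≤ 0} := by
  refine ⟨Unit, inferInstance, rename Sum.inl p + X (Sum.inr ()), ?_⟩
  intro a
  have hev : ∀ w : Unit → ℕ, ev a w (rename Sum.inl p + X (Sum.inr ()))
      = MvPolynomial.eval (fun i => (a i : ℤ)) p + (w () : ℤ) := by
    intro w
    rw [ev_add, ev_rename_inl, ev_X_inr]
  refine ⟨?_, ?_⟩
  · constructor
    · intro h
      have h' : MvPolynomial.eval (fun i => (a i : ℤ)) p ≤ 0 := h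
      refine ⟨fun _ => (- MvPolynomial.eval (fun i => (a i : ℤ)) p).toNat, ?_⟩
      rw [hev]
      have : ((- MvPolynomial.eval (fun i => (a i : ℤ)) p).toNat : ℤ)
          = - MvPolynomial.eval (fun i => (a i : ℤ)) p := Int.toNat_of_nonneg (by omega)
      rw [this]
      ring
    · rintro ⟨w, hw⟩
      rw [hev] at hw
      have : (0 : ℤ) ≤ (w () : ℤ) := Int.natCast_nonneg _
      show MvPolynomial.eval (fun i => (a i : ℤ)) p ≤ 0
      omega
  · intro w w' hw hw'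
    rw [hev] at hw hw'
    funext j
    have : (w () : ℤ) = (w' () : ℤ) := by linarith
    exact_mod_cast this

theorem sfg_gtz {n : ℕ} (p : MvPolynomial (Fin n) ℤ) :
    SFg {a : Fin n → ℕ | ¬ MvPolynomial.eval (fun i => (a i : ℤ)) p ≤ 0} := by
  refine ⟨Unit, inferInstance, rename Sum.inl p - X (Sum.inr ()) - 1, ?_⟩
  intro a
  have hev : ∀ w : Unit → ℕ, ev a w (rename Sum.inl p - X (Sum.inr ()) - 1)
      = MvPolynomial.eval (fun i => (a i : ℤ)) p - (w () : ℤ) - 1 := by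
    intro w
    rw [ev_sub, ev_sub, ev_rename_inl, ev_X_inr, ev_one]
  refine ⟨?_, ?_⟩
  · constructor
    · intro h
      have h' : ¬ MvPolynomial.eval (fun i => (a i : ℤ)) p ≤ 0 := h
      refine ⟨fun _ => (MvPolynomial.eval (fun i => (a i : ℤ)) p - 1).toNat, ?_⟩
      rw [hev]
      have : ((MvPolynomial.eval (fun i => (a i : ℤ)) p - 1).toNat : ℤ)
          = MvPolynomial.eval (fun i => (a i : ℤ)) p - 1 := Int.toNat_of_nonneg (by omega)
      rw [this]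
      ring
    · rintro ⟨w, hw⟩
      rw [hev] at hw
      have : (0 : ℤ) ≤ (w () : ℤ) := Int.natCast_nonneg _
      show ¬ MvPolynomial.eval (fun i => (a i : ℤ)) p ≤ 0
      omega
  · intro w w' hw hw'
    rw [hev] at hw hw'
    funext j
    have : (w () : ℤ) = (w' () : ℤ) := by linarith
    exact_mod_cast this

theorem sfg_inter {n : ℕ} {S T : Set (Fin n → ℕ)} (hS : SFg S) (hT : SFg T) : SFg (S ∩ T) := by
  obtain ⟨ι, hι, P, hP⟩ := hS
  obtain ⟨κ, hκ, Q, hQ⟩ := hT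
  refine ⟨ι ⊕ κ, inferInstance,
    (rename (Sum.map id Sum.inl) P) ^ 2 + (rename (Sum.map id Sum.inr) Q) ^ 2, ?_⟩
  intro a
  have hev : ∀ w : ι ⊕ κ → ℕ,
      ev a w ((rename (Sum.map id Sum.inl) P) ^ 2 + (rename (Sum.map id Sum.inr) Q) ^ 2)
        = (ev a (fun j => w (Sum.inl j)) P) ^ 2 + (ev a (fun j => w (Sum.inr j)) Q) ^ 2 := by
    intro w
    rw [ev_add, ev_pow, ev_pow, ev_rename_map_inl, ev_rename_map_inr]
  have hz : ∀ w : ι ⊕ κ → ℕ,
      ev a w ((rename (Sum.map id Sum.inl) P) ^ 2 + (rename (Sum.map id Sum.inr) Q) ^ 2) = 0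
        ↔ ev a (fun j => w (Sum.inl j)) P = 0 ∧ ev a (fun j => w (Sum.inr j)) Q = 0 := by
    intro w
    rw [hev]
    constructor
    · intro h
      constructor <;> nlinarith [sq_nonneg (ev a (fun j => w (Sum.inl j)) P),
        sq_nonneg (ev a (fun j => w (Sum.inr j)) Q)]
    · rintro ⟨h1, h2⟩
      rw [h1, h2]
      ring
  obtain ⟨hP1, hP2⟩ := hP a
  obtain ⟨hQ1, hQ2⟩ := hQ a
  refine ⟨?_, ?_⟩
  · constructor
    · rintro ⟨haS, haT⟩
      obtain ⟨w1, hw1⟩ := hP1.mp haS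
      obtain ⟨w2, hw2⟩ := hQ1.mp haT
      refine ⟨Sum.elim w1 w2, ?_⟩
      rw [hz]
      exact ⟨hw1, hw2⟩
    · rintro ⟨w, hw⟩
      rw [hz] at hw
      exact ⟨hP1.mpr ⟨_, hw.1⟩, hQ1.mpr ⟨_, hw.2⟩⟩
  · intro w w' hw hw'
    rw [hz] at hw hw'
    have e1 := hP2 _ _ hw.1 hw'.1
    have e2 := hQ2 _ _ hw.2 hw'.2
    funext x
    cases x with
    | inl j => exact congrFun e1 j
    | inr j => exact congrFun e2 j

theorem sfg_union {n : ℕ} {S T : Set (Fin n → ℕ)} (hS : SFg S) (hT : SFg T)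
    (hdisj : ∀ a, a ∈ S → a ∈ T → False) : SFg (S ∪ T) := by
  classical
  obtain ⟨ι, hι, P, hP⟩ := hS
  obtain ⟨κ, hκ, Q, hQ⟩ := hT
  refine ⟨ι ⊕ κ, inferInstance,
    ((rename (Sum.map id Sum.inl) P) ^ 2 + ∑ k : κ, (X (Sum.inr (Sum.inr k))) ^ 2) *
      ((rename (Sum.map id Sum.inr) Q) ^ 2 + ∑ i : ι, (X (Sum.inr (Sum.inl i))) ^ 2), ?_⟩
  intro a
  have hev : ∀ w : ι ⊕ κ → ℕ,
      ev a w (((rename (Sum.map id Sum.inl) P) ^ 2 + ∑ k : κ, (X (Sum.inr (Sum.inr k))) ^ 2) *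
        ((rename (Sum.map id Sum.inr) Q) ^ 2 + ∑ i : ι, (X (Sum.inr (Sum.inl i))) ^ 2))
        = ((ev a (fun j => w (Sum.inl j)) P) ^ 2 + ∑ k : κ, ((w (Sum.inr k) : ℕ) : ℤ) ^ 2) *
          ((ev a (fun j => w (Sum.inr j)) Q) ^ 2 + ∑ i : ι, ((w (Sum.inl i) : ℕ) : ℤ) ^ 2) := by
    intro w
    rw [ev_mul, ev_add, ev_add, ev_pow, ev_pow, ev_rename_map_inl, ev_rename_map_inr,
      ev_sum, ev_sum]
    simp only [ev_pow, ev_X_inr]
  have hsq : ∀ (α : Type) [Fintype α] (A : ℤ) (v : α → ℕ),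
      A ^ 2 + ∑ k : α, ((v k : ℕ) : ℤ) ^ 2 = 0 ↔ A = 0 ∧ ∀ k, v k = 0 := by
    intro α _ A v
    have hnn : 0 ≤ ∑ k : α, ((v k : ℕ) : ℤ) ^ 2 := Finset.sum_nonneg (fun k _ => sq_nonneg _)
    constructor
    · intro h
      have hA : A = 0 := by nlinarith [sq_nonneg A]
      have hsum : ∑ k : α, ((v k : ℕ) : ℤ) ^ 2 = 0 := by nlinarith [sq_nonneg A]
      refine ⟨hA, fun k => ?_⟩
      have := (Finset.sum_eq_zero_iff_of_nonneg (fun k _ => sq_nonneg ((v k : ℕ) : ℤ))).mp hsum k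
        (Finset.mem_univ k)
      have h0 : ((v k : ℕ) : ℤ) = 0 := by nlinarith
      exact_mod_cast h0
    · rintro ⟨hA, hv⟩
      rw [hA]
      simp [hv]
  have hz : ∀ w : ι ⊕ κ → ℕ,
      ev a w (((rename (Sum.map id Sum.inl) P) ^ 2 + ∑ k : κ, (X (Sum.inr (Sum.inr k))) ^ 2) *
        ((rename (Sum.map id Sum.inr) Q) ^ 2 + ∑ i : ι, (X (Sum.inr (Sum.inl i))) ^ 2)) = 0
        ↔ (ev a (fun j => w (Sum.inl j)) P = 0 ∧ ∀ k, w (Sum.inr k) = 0) ∨
          (ev a (fun j => w (Sum.inr j)) Q = 0 ∧ ∀ i, w (Sum.inl i) = 0) := by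
    intro w
    rw [hev, mul_eq_zero, hsq κ _ (fun k => w (Sum.inr k)), hsq ι _ (fun i => w (Sum.inl i))]
  obtain ⟨hP1, hP2⟩ := hP a
  obtain ⟨hQ1, hQ2⟩ := hQ a
  refine ⟨?_, ?_⟩
  · constructor
    · rintro (haS | haT)
      · obtain ⟨w1, hw1⟩ := hP1.mp haS
        refine ⟨Sum.elim w1 (fun _ => 0), ?_⟩
        rw [hz]
        left
        exact ⟨hw1, fun k => rfl⟩
      · obtain ⟨w2, hw2⟩ := hQ1.mp haT
        refine ⟨Sum.elim (fun _ => 0) w2, ?_⟩
        rw [hz]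
        right
        exact ⟨hw2, fun k => rfl⟩
    · rintro ⟨w, hw⟩
      rw [hz] at hw
      rcases hw with h | h
      · exact Or.inl (hP1.mpr ⟨_, h.1⟩)
      · exact Or.inr (hQ1.mpr ⟨_, h.1⟩)
  · intro w w' hw hw'
    rw [hz] at hw hw'
    rcases hw with h | h <;> rcases hw' with h' | h'
    · have e1 := hP2 _ _ h.1 h'.1
      funext x
      cases x with
      | inl j => exact congrFun e1 j
      | inr j => rw [h.2 j, h'.2 j]
    · exact (hdisj a (hP1.mpr ⟨_, h.1⟩) (hQ1.mpr ⟨_, h'.1⟩)).elim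
    · exact (hdisj a (hP1.mpr ⟨_, h'.1⟩) (hQ1.mpr ⟨_, h.1⟩)).elim
    · have e2 := hQ2 _ _ h.1 h'.1
      funext x
      cases x with
      | inl j => rw [h.2 j, h'.2 j]
      | inr j => exact congrFun e2 j

/-- Both a quantifier-free set and its complement are single-fold. -/
theorem sfg_qf {n : ℕ} (φ : QF n) :
    SFg {a : Fin n → ℕ | QF.Holds φ a} ∧ SFg {a : Fin n → ℕ | ¬ QF.Holds φ a} := by
  induction φ with
  | eqz p => exact ⟨sfg_eqz p, sfg_nez p⟩
  | lez p => exact ⟨sfg_lez p, sfg_gtz p⟩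
  | not φ ih =>
    refine ⟨ih.2, ?_⟩
    have : {a : Fin n → ℕ | ¬ QF.Holds (QF.not φ) a} = {a : Fin n → ℕ | QF.Holds φ a} := by
      ext a
      simp [QF.Holds]
    rw [this]
    exact ih.1
  | and φ ψ ih1 ih2 =>
    constructor
    · have : {a : Fin n → ℕ | QF.Holds (QF.and φ ψ) a}
          = {a : Fin n → ℕ | QF.Holds φ a} ∩ {a : Fin n → ℕ | QF.Holds ψ a} := by
        ext a
        simp [QF.Holds]
      rw [this]
      exact sfg_inter ih1.1 ih2.1
    · have : {a : Fin n → ℕ | ¬ QF.Holds (QF.and φ ψ) a}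
          = {a : Fin n → ℕ | ¬ QF.Holds φ a} ∪
            ({a : Fin n → ℕ | QF.Holds φ a} ∩ {a : Fin n → ℕ | ¬ QF.Holds ψ a}) := by
        ext a
        simp only [QF.Holds, Set.mem_ofPred_eq, Set.mem_union, Set.mem_inter_iff]
        tauto
      rw [this]
      refine sfg_union ih1.2 (sfg_inter ih1.1 ih2.2) ?_
      intro a h1 h2
      exact h1 h2.1
  | or φ ψ ih1 ih2 =>
    constructor
    · have : {a : Fin n → ℕ | QF.Holds (QF.or φ ψ) a}
          = {a : Fin n → ℕ | QF.Holds φ a} ∪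
            ({a : Fin n → ℕ | ¬ QF.Holds φ a} ∩ {a : Fin n → ℕ | QF.Holds ψ a}) := by
        ext a
        simp only [QF.Holds, Set.mem_ofPred_eq, Set.mem_union, Set.mem_inter_iff]
        tauto
      rw [this]
      refine sfg_union ih1.1 (sfg_inter ih1.2 ih2.1) ?_
      intro a h1 h2
      exact h2.1 h1
    · have : {a : Fin n → ℕ | ¬ QF.Holds (QF.or φ ψ) a}
          = {a : Fin n → ℕ | ¬ QF.Holds φ a} ∩ {a : Fin n → ℕ | ¬ QF.Holds ψ a} := by
        ext a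
        simp only [QF.Holds, Set.mem_ofPred_eq, Set.mem_inter_iff]
        tauto
      rw [this]
      exact sfg_inter ih1.2 ih2.2

/-- Every subset of `ℕⁿ` defined by a quantifier-free formula of arithmetic has a single-fold
Diophantine representation. -/
theorem result (n : ℕ) (φ : QF n) : SingleFold {a : Fin n → ℕ | QF.Holds φ a} :=
  singleFold_of_sfg (sfg_qf φ).1

end Vale.Agent.Results.P345.A_QuantifierFree
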